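import Vale.Agent.P315.H659.FailTopW
import Vale.Agent.P315.H763.PlugW

/-!
P315, milestone 2 (helper68): the certificate half of the plug of the machines with edge weights:
outside the failure event the certified cost of a region is below the mean cost of the stored
paths one window later.
-/

set_option autoImplicit false

open Finset

namespace Vale.Agent.P315.H68

open H155 H220 H801 Vale.Agent.P315.C

section

variable {K h wm Z g NL Dl R T Sh Rh Cc μ B lo ca : ℕ} {LB : List ℕ}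

/-- **Certificates.** Outside the failure event the certified cost of the region is below the
mean cost of the stored paths one window later. -/
theorem certW (hLB : LB ≠ []) {D : ℕ → ℕ → ℕ → ℕ → ℕ → ℕ} {coin : ℕ → ℕ}
    {CR : ℕ → ℕ → ℕ → ℕ} {cnt : ℕ}
    (stored : ∀ q, q < cnt → ∀ κ, CR κ (posN μ B lo Z g (qA (2 * g) q * K))
        (posN μ B lo Z g (min (qB (2 * g) q) (2 * g) * K)) ≤
      ∑ i : Fin (K + 2), nodeW K Z g μ B lo LB D (κ + h) i
        (pkW K h wm Z g NL Dl R T Sh Rh Cc μ B lo q κ ca LB hLB D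
          (coin (qS (2 * g) NL Dl R q) % T) i).1
        (pkW K h wm Z g NL Dl R T Sh Rh Cc μ B lo q κ ca LB hLB D
          (coin (qS (2 * g) NL Dl R q) % T) i).2)
    (lipR : ∀ κ u u' v v', CR κ u v ≤ 2 * Nat.dist u u' + CR κ u' v' + 2 * Nat.dist v' v)
    {a0 b0 p0 p1 e : ℕ} (ha : a0 ≤ 2 * g) (hb : b0 ≤ 2 * g)
    (he : 2 * Nat.dist p0 (posN μ B lo Z g (a0 * K)) +
      2 * Nat.dist (posN μ B lo Z g (b0 * K)) p1 ≤ e)
    {Sm NR : ℕ} {Bd d : ℝ} (hcnt : cntQ (2 * g) NL Dl R Sm ≤ cnt) (hT : 0 < T) (hd : 0 ≤ d)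
    (hBd : ∀ κ, (CR κ p0 p1 : ℝ) ≤ (WD (K + 2) (pW K g LB) (a0 * K) (b0 * K)
      (nodeW K Z g μ B lo LB D (κ + h)) : ℝ) + Bd)
    (hF : ¬ H659.FailTopWA K h wm Z g NL Dl R T Sh Rh Cc μ B lo ca LB hLB a0 b0 Sm NR Bd d D
      coin)
    {l o r κ : ℕ} (hl : l < NL) (ho : o < Dl) (hr : r < R) (hκ : κ < NR)
    (hact : H763.actB K Z g Dl μ B lo a0 b0 l o LB D (H519.blk o Dl κ))
    (hrk : rk (H763.actB K Z g Dl μ B lo a0 b0 l o LB D) (H519.blk o Dl κ) < R) :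
    (CR κ p0 p1 : ℝ) ≤
      H782.val (Dr (K + 2) (pW K g LB) (nodeW K Z g μ B lo LB D) (κ + h))
        (H782.xx (pkW K h wm Z g NL Dl R T Sh Rh Cc μ B lo
          (encQ (2 * g) NL Dl R a0 b0 l o r 0) κ ca LB hLB D) T) + (d + e) := by
  have hb' : b0 ≤ 2 * (2 * g) := by omega
  obtain ⟨f1, f2, f3, f4, f5, -⟩ := dec_enc (NL := NL) (Dl := Dl) (R := R) (sm := 0) ha hb'
    hl ho hr
  have fb : min (qB (2 * g) (encQ (2 * g) NL Dl R a0 b0 l o r 0)) (2 * g) = b0 := by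
    rw [f2]; exact min_eq_left hb
  by_cases hle : H782.val (Dr (K + 2) (pW K g LB) (nodeW K Z g μ B lo LB D) (κ + h))
        (H782.xx (pkW K h wm Z g NL Dl R T Sh Rh Cc μ B lo
          (encQ (2 * g) NL Dl R a0 b0 l o r 0) κ ca LB hLB D) T) ≤
      (WD (K + 2) (pW K g LB) (a0 * K) (b0 * K) (nodeW K Z g μ B lo LB D (κ + h)) : ℝ) + Bd
  · have hrk' : rk (actD (K + 2) (pW K g LB) (a0 * K) (b0 * K) Dl o (cdiv (K * Z) (2 ^ l))
        (cdiv (K * Z) (2 ^ (l + 1))) (nodeW K Z g μ B lo LB D)) (H801.blk Dl o κ) < R := by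
      have h0 : rk (H763.actB K Z g Dl μ B lo a0 b0 l o LB D) (H519.blk o Dl κ) =
          rk (actD (K + 2) (pW K g LB) (a0 * K) (b0 * K) Dl o (cdiv (K * Z) (2 ^ l))
            (cdiv (K * Z) (2 ^ (l + 1))) (nodeW K Z g μ B lo LB D)) (H801.blk Dl o κ) :=
        rk_congr (fun j => Iff.rfl) _
      rw [← h0]
      exact hrk
    obtain ⟨sm, hsm, hs⟩ := H659.exists_sampleWA' hLB hT hF hl ho hr hκ hact hrk'
      (by rw [f1, fb]; exact hle)
    obtain ⟨e1, e2, e3, e4, e5, e6⟩ := dec_enc (NL := NL) (Dl := Dl) (R := R) (sm := sm) ha hb'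
      hl ho hr
    have eb : min (qB (2 * g) (encQ (2 * g) NL Dl R a0 b0 l o r sm)) (2 * g) = b0 := by
      rw [e2]; exact min_eq_left hb
    have h1 := stored (encQ (2 * g) NL Dl R a0 b0 l o r sm)
      ((enc_lt ha hb' hl ho hr hsm).trans_le hcnt) κ
    simp only [e6] at h1
    simp only [H763.pkW_congr (q := encQ (2 * g) NL Dl R a0 b0 l o r sm)
      (q' := encQ (2 * g) NL Dl R a0 b0 l o r 0) hLB D κ _ (by rw [e1, f1])
      (by rw [eb, fb]) (by rw [e3, f3]) (by rw [e4, f4]) (by rw [e5, f5]), e1, eb] at h1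
    have h2 := lipR κ p0 (posN μ B lo Z g (a0 * K)) p1 (posN μ B lo Z g (b0 * K))
    have h3 : CR κ p0 p1 ≤ (∑ i : Fin (K + 2), nodeW K Z g μ B lo LB D (κ + h) i
        (pkW K h wm Z g NL Dl R T Sh Rh Cc μ B lo (encQ (2 * g) NL Dl R a0 b0 l o r 0) κ ca LB
          hLB D (coin sm % T) i).1
        (pkW K h wm Z g NL Dl R T Sh Rh Cc μ B lo (encQ (2 * g) NL Dl R a0 b0 l o r 0) κ ca LB
          hLB D (coin sm % T) i).2) + e := by omega
    have h4 : (CR κ p0 p1 : ℝ) ≤ (∑ i : Fin (K + 2), (nodeW K Z g μ B lo LB D (κ + h) i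
        (pkW K h wm Z g NL Dl R T Sh Rh Cc μ B lo (encQ (2 * g) NL Dl R a0 b0 l o r 0) κ ca LB
          hLB D (coin sm % T) i).1
        (pkW K h wm Z g NL Dl R T Sh Rh Cc μ B lo (encQ (2 * g) NL Dl R a0 b0 l o r 0) κ ca LB
          hLB D (coin sm % T) i).2 : ℝ)) + e := by exact_mod_cast h3
    linarith
  · have h1 := hBd κ
    have h2 : (0 : ℝ) ≤ e := Nat.cast_nonneg _
    linarith [not_le.1 hle]

end

end Vale.Agent.P315.H68
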